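import Crest.Agent.R74.Darbo

/-! Tingley's problem: aligning an extremal chord. -/

set_option autoImplicit false

namespace Crest.Agent.R74

section
variable {X : Type*} [NormedAddCommGroup X] [NormedSpace ℝ X]

theorem nsm {s : ℝ} (hs : 0 ≤ s) (a : X) : ‖s • a‖ = s * ‖a‖ := by
  rw [norm_smul, Real.norm_eq_abs, abs_of_nonneg hs]

theorem sim_scale {a b : X} (ha : ‖a‖ = 1) (hb : ‖b‖ = 1) {s t s' t' : ℝ} (hs : 0 < s) (ht : 0 < t)
    (hs' : 0 ≤ s') (ht' : 0 ≤ t') (h : ‖s • a + t • b‖ = s + t) : ‖s' • a + t' • b‖ = s' + t' := by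
  apply le_antisymm
  · have := norm_add_le (s' • a) (t' • b)
    rwa [nsm hs', nsm ht', ha, hb, mul_one, mul_one] at this
  · obtain ⟨k, hk, h1, h2⟩ : ∃ k : ℝ, 0 < k ∧ k * s' ≤ s ∧ k * t' ≤ t := by
      refine ⟨min (s / (s' + 1)) (t / (t' + 1)), by positivity, ?_, ?_⟩
      · refine (mul_le_mul_of_nonneg_right (min_le_left _ _) hs').trans ?_
        rw [div_mul_eq_mul_div, div_le_iff₀ (by positivity)]
        nlinarith
      · refine (mul_le_mul_of_nonneg_right (min_le_right _ _) ht').trans ?_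
        rw [div_mul_eq_mul_div, div_le_iff₀ (by positivity)]
        nlinarith
    have e : s • a + t • b = k • (s' • a + t' • b) + (s - k * s') • a + (t - k * t') • b := by module
    have h3 := norm_add₃_le (a := k • (s' • a + t' • b)) (b := (s - k * s') • a)
      (c := (t - k * t') • b)
    rw [← e, h, nsm hk.le, nsm (sub_nonneg.2 h1), nsm (sub_nonneg.2 h2), ha, hb] at h3
    refine le_of_mul_le_mul_left ?_ hk
    linarith

theorem sim_iff {a b : X} (ha : ‖a‖ = 1) (hb : ‖b‖ = 1) {s t : ℝ} (hs : 0 < s) (ht : 0 < t) :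
    ‖s • a + t • b‖ = s + t ↔ ‖a + b‖ = 2 := by
  constructor
  · intro h
    have := sim_scale ha hb hs ht zero_le_one zero_le_one h
    simpa [one_add_one_eq_two] using this
  · intro h
    exact sim_scale ha hb one_pos one_pos hs.le ht.le (by simpa [one_add_one_eq_two] using h)

theorem est1 {b c : X} (hc : ‖c‖ = 1) {s : ℝ} (t : ℝ) (hs : 0 ≤ s) :
    ‖s • b - t • c‖ ≤ s * ‖b - c‖ + |s - t| := by
  have e : s • b - t • c = s • (b - c) + (s - t) • c := by module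
  have := norm_add_le (s • (b - c)) ((s - t) • c)
  rwa [← e, nsm hs, norm_smul, hc, mul_one, Real.norm_eq_abs] at this

theorem est2 {b c : X} (hc : ‖c‖ = 1) {s : ℝ} (t : ℝ) (hs : 0 ≤ s) :
    s * ‖b - c‖ ≤ ‖s • b - t • c‖ + |s - t| := by
  have e : s • (b - c) = (s • b - t • c) - (s - t) • c := by module
  have := norm_sub_le (s • b - t • c) ((s - t) • c)
  rwa [← e, nsm hs, norm_smul, hc, mul_one, Real.norm_eq_abs] at this

theorem exists_exit {p b : X} (hp : ‖p‖ < 1) (hb : ‖b‖ = 1) : ∃ t : ℝ, 0 < t ∧ ‖p + t • b‖ = 1 := by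
  have hc : Continuous fun t : ℝ => ‖p + t • b‖ := by fun_prop
  have h2 : 1 ≤ ‖p + (2 : ℝ) • b‖ := by
    have := norm_sub_le (p + (2 : ℝ) • b) p
    rw [add_sub_cancel_left, nsm zero_le_two, hb] at this
    linarith
  obtain ⟨t, ht, h⟩ := intermediate_value_Icc (zero_le_two (α := ℝ)) hc.continuousOn
    (show (1 : ℝ) ∈ Set.Icc _ _ from ⟨by simpa using hp.le, h2⟩)
  refine ⟨t, ht.1.lt_of_ne ?_, h⟩
  rintro rfl
  simp only [zero_smul, add_zero] at h
  exact hp.ne h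

open Classical in
/-- exit time of the ray from `p` in the direction `b` -/
noncomputable def ex (p b : X) : ℝ := if h : ∃ t : ℝ, 0 < t ∧ ‖p + t • b‖ = 1 then h.choose else 0

theorem ex_spec {p b : X} (hp : ‖p‖ < 1) (hb : ‖b‖ = 1) : 0 < ex p b ∧ ‖p + ex p b • b‖ = 1 := by
  have h := exists_exit hp hb
  unfold ex
  rw [dif_pos h]
  exact h.choose_spec

theorem exit_le {p b : X} (hp : ‖p‖ < 1) (hb : ‖b‖ = 1) {t : ℝ} (ht : 0 < t)
    (h : ‖p + t • b‖ = 1) : t ≤ 2 := by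
  have := norm_sub_le (p + t • b) p
  rw [add_sub_cancel_left, nsm ht.le, hb] at this
  linarith

theorem exit_lip_aux {p b b' : X} (hp : ‖p‖ < 1) (hb : ‖b‖ = 1) (hb' : ‖b'‖ = 1) {t t' : ℝ}
    (ht : 0 < t) (htt : t ≤ t') (h : ‖p + t • b‖ = 1) (h' : ‖p + t' • b'‖ = 1) :
    (1 - ‖p‖) * (t' - t) ≤ 4 * ‖b - b'‖ := by
  have ht' : 0 < t' := ht.trans_le htt
  have e : t' • (p + t • b) = t • (p + t' • b') + (t' - t) • p + (t * t') • (b - b') := by module
  have h3 := norm_add₃_le (a := t • (p + t' • b')) (b := (t' - t) • p) (c := (t * t') • (b - b'))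
  rw [← e, nsm ht'.le, nsm ht.le, nsm (sub_nonneg.2 htt), nsm (mul_pos ht ht').le, h, h'] at h3
  have h4 : t * t' ≤ 4 := by
    have := exit_le hp hb ht h
    have := exit_le hp hb' ht' h'
    nlinarith
  have := mul_le_mul_of_nonneg_right h4 (norm_nonneg (b - b'))
  linarith

theorem ex_lip {p b b' : X} (hp : ‖p‖ < 1) (hb : ‖b‖ = 1) (hb' : ‖b'‖ = 1) :
    |ex p b - ex p b'| ≤ 4 / (1 - ‖p‖) * ‖b - b'‖ := by
  have h := ex_spec hp hb
  have h' := ex_spec hp hb'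
  have h0 : 0 < 1 - ‖p‖ := by linarith
  rw [div_mul_eq_mul_div, le_div_iff₀ h0, mul_comm]
  rcases le_total (ex p b) (ex p b') with hh | hh
  · rw [abs_sub_comm, abs_of_nonneg (sub_nonneg.2 hh)]
    exact exit_lip_aux hp hb hb' h.1 hh h.2 h'.2
  · rw [abs_of_nonneg (sub_nonneg.2 hh), norm_sub_rev]
    exact exit_lip_aux hp hb' hb h'.1 hh h'.2 h.2

theorem dir_spec {w : X} (hw : w ≠ 0) : ‖‖w‖⁻¹ • w‖ = 1 ∧ ‖w‖ • ‖w‖⁻¹ • w = w := by
  have h0 : ‖w‖ ≠ 0 := norm_ne_zero_iff.2 hw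
  exact ⟨by rw [nsm (by positivity), inv_mul_cancel₀ h0], smul_inv_smul₀ h0 w⟩

theorem exists_face {u : X} (hu : ‖u‖ = 1) : ∃ F : Set X, u ∈ F ∧ Convex ℝ F ∧
    (∀ a ∈ F, ‖a‖ = 1) ∧ ∀ a, ‖a‖ = 1 → (∀ c ∈ F, ‖a + c‖ = 2) → a ∈ F := by
  obtain ⟨F, hF, hmax⟩ := zorn_subset_nonempty {C : Set X | Convex ℝ C ∧ ∀ a ∈ C, ‖a‖ = 1}
    (fun c hc hch _ => ⟨⋃₀ c, ⟨DirectedOn.convex_sUnion hch.directedOn fun _ h => (hc h).1,
      fun a ⟨C, hC, ha⟩ => (hc hC).2 a ha⟩, fun s hs => Set.subset_sUnion_of_mem hs⟩)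
    {u} ⟨convex_singleton u, by simpa using hu⟩
  have huF : u ∈ F := hF rfl
  refine ⟨F, huF, hmax.prop.1, hmax.prop.2, fun a ha h => ?_⟩
  have h1 : convexJoin ℝ {a} F ⊆ F := by
    refine hmax.le_of_ge ⟨(convex_singleton a).convexJoin hmax.prop.1, ?_⟩
      (subset_convexJoin_right (Set.singleton_nonempty a))
    intro w hw
    obtain ⟨_, rfl, c, hc, s, t, hs, ht, hst, rfl⟩ := mem_convexJoin.1 hw
    rw [← hst]
    exact sim_scale ha (hmax.prop.2 c hc) one_pos one_pos hs ht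
      (by simpa [one_add_one_eq_two] using h c hc)
  exact h1 (subset_convexJoin_left ⟨u, huF⟩ rfl)

theorem face_sim {F : Set X} (hF : Convex ℝ F) (h1 : ∀ a ∈ F, ‖a‖ = 1) {a b : X} (ha : a ∈ F)
    (hb : b ∈ F) : ‖a + b‖ = 2 := by
  refine (sim_iff (h1 a ha) (h1 b hb) one_half_pos one_half_pos).1 ?_
  rw [add_halves]
  exact h1 _ (hF ha hb one_half_pos.le one_half_pos.le (add_halves 1))

end

/-- a bijective isometry of unit spheres -/
structure SI (X Y : Type*) [NormedAddCommGroup X] [NormedAddCommGroup Y] where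
  f : X → Y
  g : Y → X
  nf : ∀ x, ‖x‖ = 1 → ‖f x‖ = 1
  ng : ∀ y, ‖y‖ = 1 → ‖g y‖ = 1
  gf : ∀ x, ‖x‖ = 1 → g (f x) = x
  fg : ∀ y, ‖y‖ = 1 → f (g y) = y
  d : ∀ x x', ‖x‖ = 1 → ‖x'‖ = 1 → ‖f x - f x'‖ = ‖x - x'‖

namespace SI
variable {X Y : Type*} [NormedAddCommGroup X] [NormedAddCommGroup Y]

/-- the inverse isometry -/
def symm (S : SI X Y) : SI Y X where
  f := S.g
  g := S.f
  nf := S.ng
  ng := S.nf
  gf := S.fg
  fg := S.gf
  d := fun y y' hy hy' => by rw [← S.d _ _ (S.ng y hy) (S.ng y' hy'), S.fg y hy, S.fg y' hy']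

variable [NormedSpace ℝ X] [NormedSpace ℝ Y] (S : SI X Y) (p : X) (q : Y)

noncomputable def cγ (b : X) : ℝ := ex p (-b)
noncomputable def cz (b : X) : X := p - cγ p b • b
noncomputable def cγ' (b : X) : ℝ := ‖q - S.f (cz p b)‖
noncomputable def cv (b : X) : Y := (S.cγ' p q b)⁻¹ • (q - S.f (cz p b))
noncomputable def cβ (b : X) : ℝ := ex q (S.cv p q b)
noncomputable def cx (b : X) : X := S.g (q + S.cβ p q b • S.cv p q b)
noncomputable def cα (b : X) : ℝ := ‖S.cx p q b - p‖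
noncomputable def cT (b : X) : X := (S.cα p q b)⁻¹ • (S.cx p q b - p)

/-- everything about the chords attached to a unit vector -/
structure Facts (b : X) : Prop where
  γ0 : 0 < cγ p b
  γ2 : cγ p b ≤ 2
  z1 : ‖cz p b‖ = 1
  γ'0 : 0 < S.cγ' p q b
  v1 : ‖S.cv p q b‖ = 1
  fz : S.f (cz p b) = q - S.cγ' p q b • S.cv p q b
  β0 : 0 < S.cβ p q b
  β2 : S.cβ p q b ≤ 2
  x1 : ‖S.cx p q b‖ = 1
  fx : S.f (S.cx p q b) = q + S.cβ p q b • S.cv p q b
  α0 : 0 < S.cα p q b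
  T1 : ‖S.cT p q b‖ = 1
  xe : S.cx p q b = p + S.cα p q b • S.cT p q b

variable {p q}

theorem facts (hp : ‖p‖ < 1) (hq : ‖q‖ < 1) {b : X} (hb : ‖b‖ = 1) : S.Facts p q b := by
  have hb' : ‖-b‖ = 1 := by rw [norm_neg, hb]
  have h1 := ex_spec hp hb'
  have z1 : ‖cz p b‖ = 1 := by
    have := h1.2
    rwa [smul_neg, ← sub_eq_add_neg] at this
  have h2 : q - S.f (cz p b) ≠ 0 := by
    intro h
    rw [sub_eq_zero] at h
    rw [h, S.nf _ z1] at hq
    exact lt_irrefl _ hq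
  have h3 := dir_spec h2
  have v1 : ‖S.cv p q b‖ = 1 := h3.1
  have h4 := ex_spec hq v1
  have x1 : ‖S.cx p q b‖ = 1 := S.ng _ h4.2
  have h5 : S.cx p q b - p ≠ 0 := by
    intro h
    rw [sub_eq_zero] at h
    rw [← h, x1] at hp
    exact lt_irrefl _ hp
  have h6 := dir_spec h5
  refine ⟨h1.1, exit_le hp hb' h1.1 h1.2, z1, norm_pos_iff.2 h2, v1, ?_, h4.1,
    exit_le hq v1 h4.1 h4.2, x1, S.fg _ h4.2, norm_pos_iff.2 h5, h6.1, ?_⟩
  · have : S.cγ' p q b • S.cv p q b = q - S.f (cz p b) := h3.2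
    rw [this, sub_sub_cancel]
  · have : S.cα p q b • S.cT p q b = S.cx p q b - p := h6.2
    rw [this, add_sub_cancel]

theorem align [CompleteSpace X] (hp : ‖p‖ < 1) (hq : ‖q‖ < 1) {M : ℝ} (hM : 0 < M)
    (hB : ∀ w, ‖w‖ = 1 → |‖w - p‖ - ‖S.f w - q‖| ≤ M) {x₀ : X} (hx₀ : ‖x₀‖ = 1)
    (h₀ : ‖x₀ - p‖ - ‖S.f x₀ - q‖ = M) :
    ∃ (u : X) (v : Y) (β γ : ℝ), ‖u‖ = 1 ∧ 0 < β ∧ 0 < γ ∧ ‖p + (β + M) • u‖ = 1 ∧
      ‖p - γ • u‖ = 1 ∧ S.f (p + (β + M) • u) = q + β • v ∧ S.f (p - γ • u) = q - (γ + M) • v := by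
  have hne : x₀ - p ≠ 0 := by
    intro h
    rw [sub_eq_zero] at h
    rw [← h, hx₀] at hp
    exact lt_irrefl _ hp
  obtain ⟨hu1, hu2⟩ := dir_spec hne
  have hα₀ : 0 < ‖x₀ - p‖ := norm_pos_iff.2 hne
  set u₀ := ‖x₀ - p‖⁻¹ • (x₀ - p) with hu₀
  obtain ⟨F, huF, hFc, hF1, hFm⟩ := exists_face hu1
  have fa : ∀ b ∈ F, S.Facts p q b := fun b hb => S.facts hp hq (hF1 b hb)
  -- the far ends are extremal
  have hγ' : ∀ b ∈ F, S.cγ' p q b = cγ p b + M := fun b hb => by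
    have f := fa b hb
    have e1 : x₀ - cz p b = ‖x₀ - p‖ • u₀ + cγ p b • b := by
      rw [hu2, cz]; abel
    have e2 : ‖x₀ - cz p b‖ = ‖x₀ - p‖ + cγ p b := by
      rw [e1]
      exact (sim_iff hu1 (hF1 b hb) hα₀ f.γ0).2 (face_sim hFc hF1 huF hb)
    have e3 := norm_sub_le_norm_sub_add_norm_sub (S.f x₀) q (S.f (cz p b))
    rw [S.d _ _ hx₀ f.z1, e2] at e3
    have e4 := (abs_le.1 (hB _ f.z1)).1
    have e5 : ‖cz p b - p‖ = cγ p b := by
      rw [cz, sub_sub_cancel_left, norm_neg, nsm f.γ0.le, hF1 b hb, mul_one]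
    rw [e5, norm_sub_rev] at e4
    unfold cγ'
    linarith
  have dX : ∀ b ∈ F, ∀ c ∈ F, ‖S.cα p q b • S.cT p q b + cγ p c • c‖ =
      ‖S.cβ p q b • S.cv p q b + S.cγ' p q c • S.cv p q c‖ := fun b hb c hc => by
    have e := S.d _ _ (fa b hb).x1 (fa c hc).z1
    rw [(fa b hb).fx, (fa c hc).fz] at e
    conv_rhs at e => rw [(fa b hb).xe, cz]
    rw [add_sub_sub_cancel, add_sub_sub_cancel] at e
    exact e.symm
  have hα : ∀ b ∈ F, S.cα p q b = S.cβ p q b + M := fun b hb => by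
    have f := fa b hb
    have e1 := dX b hb b hb
    rw [← add_smul, nsm (add_pos f.β0 f.γ'0).le, f.v1, hγ' b hb] at e1
    have e2 := norm_add_le (S.cα p q b • S.cT p q b) (cγ p b • b)
    rw [e1, nsm f.α0.le, nsm f.γ0.le, f.T1, hF1 b hb] at e2
    have e4 := (abs_le.1 (hB _ f.x1)).2
    rw [f.fx, add_sub_cancel_left, nsm f.β0.le, f.v1] at e4
    have : S.cα p q b = ‖S.cx p q b - p‖ := rfl
    linarith
  have hiff : ∀ b ∈ F, ∀ c ∈ F, ‖S.cT p q b + c‖ = 2 ↔ ‖S.cv p q b + S.cv p q c‖ = 2 :=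
    fun b hb c hc => by
      rw [← sim_iff (fa b hb).T1 (hF1 c hc) (fa b hb).α0 (fa c hc).γ0,
        ← sim_iff (fa b hb).v1 (fa c hc).v1 (fa b hb).β0 (fa c hc).γ'0, dX b hb c hc, hα b hb,
        hγ' c hc]
      constructor <;> intro h <;> rw [h] <;> ring
  have hself : ∀ b ∈ F, ‖S.cT p q b + b‖ = 2 := fun b hb => by
    rw [hiff b hb b hb, ← two_smul ℝ, nsm zero_le_two, (fa b hb).v1, mul_one]
  -- estimates
  have eV : ∀ b ∈ F, ∀ c ∈ F, ‖S.cv p q b - S.cv p q c‖ ≤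
      2 / (2 + M) * ‖b - c‖ + 2 / M * |cγ p b - cγ p c| := fun b hb c hc => by
    have f := fa b hb
    have f' := fa c hc
    have e1 := est1 (b := b) (hF1 c hc) (cγ p c) f.γ0.le
    have e2 := est2 (b := S.cv p q b) f'.v1 (S.cγ' p q c) f.γ'0.le
    have e3 := S.d _ _ f'.z1 f.z1
    rw [f.fz, f'.fz, cz, cz, sub_sub_sub_cancel_left, sub_sub_sub_cancel_left] at e3
    rw [e3, hγ' b hb, hγ' c hc, add_sub_add_right_eq_sub] at e2
    have h0 : 0 < cγ p b + M := add_pos f.γ0 hM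
    refine le_of_mul_le_mul_left ?_ h0
    have a1 : cγ p b ≤ (cγ p b + M) * (2 / (2 + M)) := by
      rw [← mul_div_assoc, le_div_iff₀ (by positivity)]
      nlinarith [f.γ2]
    have a2 : 2 ≤ (cγ p b + M) * (2 / M) := by
      rw [← mul_div_assoc, le_div_iff₀ hM]
      nlinarith [f.γ0]
    have a3 := mul_le_mul_of_nonneg_right a1 (norm_nonneg (b - c))
    have a4 := mul_le_mul_of_nonneg_right a2 (abs_nonneg (cγ p b - cγ p c))
    linarith
  have eT : ∀ b ∈ F, ∀ c ∈ F, ‖S.cT p q b - S.cT p q c‖ ≤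
      ‖S.cv p q b - S.cv p q c‖ + 2 / M * |S.cβ p q b - S.cβ p q c| := fun b hb c hc => by
    have f := fa b hb
    have f' := fa c hc
    have e1 := est1 (b := S.cv p q b) f'.v1 (S.cβ p q c) f.β0.le
    have e2 := est2 (b := S.cT p q b) f'.T1 (S.cα p q c) f.α0.le
    have e3 := S.d _ _ f.x1 f'.x1
    rw [f.fx, f'.fx] at e3
    conv_rhs at e3 => rw [f.xe, f'.xe]
    rw [add_sub_add_left_eq_sub, add_sub_add_left_eq_sub] at e3
    rw [← e3, hα b hb, hα c hc, add_sub_add_right_eq_sub] at e2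
    have h0 : 0 < S.cβ p q b + M := add_pos f.β0 hM
    refine le_of_mul_le_mul_left ?_ h0
    have a2 : 2 ≤ (S.cβ p q b + M) * (2 / M) := by
      rw [← mul_div_assoc, le_div_iff₀ hM]
      nlinarith [f.β0]
    have a3 := mul_nonneg hM.le (norm_nonneg (S.cv p q b - S.cv p q c))
    have a4 := mul_le_mul_of_nonneg_right a2 (abs_nonneg (S.cβ p q b - S.cβ p q c))
    linarith
  have hp' : 0 < 1 - ‖p‖ := by linarith
  have hq' : 0 < 1 - ‖q‖ := by linarith
  obtain ⟨L, hL0, hL⟩ : ∃ L : ℝ, 0 ≤ L ∧ ∀ b ∈ F, ∀ c ∈ F,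
      ‖S.cv p q b - S.cv p q c‖ ≤ L * ‖b - c‖ := by
    refine ⟨2 / (2 + M) + 2 / M * (4 / (1 - ‖p‖)), by positivity, fun b hb c hc => ?_⟩
    have e1 := ex_lip hp (b := -b) (b' := -c) (by rw [norm_neg, hF1 b hb])
      (by rw [norm_neg, hF1 c hc])
    rw [neg_sub_neg, norm_sub_rev] at e1
    have e2 := mul_le_mul_of_nonneg_left e1 (show 0 ≤ 2 / M by positivity)
    have e3 := eV b hb c hc
    unfold cγ at e3
    linarith
  obtain ⟨L', hL0', hL'⟩ : ∃ L' : ℝ, 0 ≤ L' ∧ ∀ b ∈ F, ∀ c ∈ F,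
      ‖S.cT p q b - S.cT p q c‖ ≤ L' * ‖b - c‖ := by
    refine ⟨(1 + 2 / M * (4 / (1 - ‖q‖))) * L, by positivity, fun b hb c hc => ?_⟩
    have e1 := ex_lip hq (fa b hb).v1 (fa c hc).v1
    have e2 := mul_le_mul_of_nonneg_left e1 (show 0 ≤ 2 / M by positivity)
    have e3 := eT b hb c hc
    have e4 := mul_le_mul_of_nonneg_left (hL b hb c hc)
      (show 0 ≤ 1 + 2 / M * (4 / (1 - ‖q‖)) by positivity)
    unfold cβ at e3
    linarith
  -- the directions in `Y` have common supports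
  have hvv : ∀ b ∈ F, ∀ c ∈ F, ‖S.cv p q b + S.cv p q c‖ = 2 := fun b hb c hc => by
    apply le_antisymm
    · have := norm_add_le (S.cv p q b) (S.cv p q c)
      rw [(fa b hb).v1, (fa c hc).v1] at this
      linarith
    refine le_of_forall_pos_le_add fun ε hε => ?_
    obtain ⟨t, ht0, ht1, htε⟩ : ∃ t : ℝ, 0 < t ∧ t ≤ 1 ∧ L * (t * 2) ≤ ε := by
      refine ⟨min 1 (ε / (2 * L + 1)), by positivity, min_le_left _ _, ?_⟩
      have h1 := min_le_right 1 (ε / (2 * L + 1))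
      rw [le_div_iff₀ (by positivity)] at h1
      have h2 : 0 < min 1 (ε / (2 * L + 1)) := by positivity
      linarith
    have hbt : (1 - t) • b + t • c ∈ F := hFc hb hc (by linarith) ht0.le (by ring)
    set bt := (1 - t) • b + t • c with hbt'
    have h1 : ‖S.cT p q bt + c‖ = 2 := by
      have a1 := hself bt hbt
      have e : S.cT p q bt + bt = (1 - t) • (S.cT p q bt + b) + t • (S.cT p q bt + c) := by
        rw [hbt']; module
      have a2 := norm_add_le ((1 - t) • (S.cT p q bt + b)) (t • (S.cT p q bt + c))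
      rw [← e, a1, nsm (sub_nonneg.2 ht1), nsm ht0.le] at a2
      have a3 := norm_add_le (S.cT p q bt) b
      have a4 := norm_add_le (S.cT p q bt) c
      rw [(fa bt hbt).T1, hF1 b hb] at a3
      rw [(fa bt hbt).T1, hF1 c hc] at a4
      apply le_antisymm (by linarith)
      refine le_of_mul_le_mul_left ?_ ht0
      nlinarith
    have h2 := (hiff bt hbt c hc).1 h1
    have h3 := hL bt hbt b hb
    have e : bt - b = t • (c - b) := by rw [hbt']; module
    have h4 := norm_sub_le c b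
    rw [hF1 b hb, hF1 c hc] at h4
    rw [e, nsm ht0.le] at h3
    have h5 : L * (t * ‖c - b‖) ≤ L * (t * 2) := by gcongr; linarith
    have h6 := norm_add_le (S.cv p q bt - S.cv p q b) (S.cv p q b + S.cv p q c)
    rw [← add_assoc, sub_add_cancel, h2] at h6
    linarith
  have hTF : Set.MapsTo (S.cT p q) F F := fun b hb =>
    hFm _ (fa b hb).T1 fun c hc => (hiff b hb c hc).2 (hvv b hb c hc)
  have hcl : IsClosed F := by
    have : F = {a | ‖a‖ = 1} ∩ ⋂ c ∈ F, {a | ‖a + c‖ = 2} := by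
      ext a
      simp only [Set.mem_inter_iff, Set.mem_iInter, Set.mem_ofPred_eq]
      exact ⟨fun ha => ⟨hF1 a ha, fun c hc => face_sim hFc hF1 ha hc⟩, fun h => hFm a h.1 h.2⟩
    rw [this]
    exact (isClosed_eq continuous_norm continuous_const).inter
      (isClosed_biInter fun c _ => isClosed_eq (by fun_prop) continuous_const)
  have hcont : ContinuousOn (S.cT p q) F := by
    refine LipschitzOnWith.continuousOn (K := ⟨L', hL0'⟩) (LipschitzOnWith.of_dist_le_mul ?_)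
    intro b hb c hc
    rw [dist_eq_norm, dist_eq_norm]
    exact hL' b hb c hc
  obtain ⟨b, hb, hfix⟩ := darbo hFc hcl (R := 1) (fun a ha => (hF1 a ha).le) huF hTF hcont
    (κ := 2 / (2 + M)) (by positivity) ((div_lt_one (by positivity)).2 (by linarith))
    (fun A hA η θ hθ ⟨ι, _, c, hc⟩ => by
      obtain ⟨ι₁, _, c₁, hc₁⟩ := exists_col (cγ p) A (R := 2) (θ := M * θ / 4) (by positivity)
        fun a ha => by rw [abs_of_pos (fa a (hA ha)).γ0]; exact (fa a (hA ha)).γ2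
      obtain ⟨ι₂, _, c₂, hc₂⟩ := exists_col (S.cβ p q) A (R := 2) (θ := M * θ / 4) (by positivity)
        fun a ha => by rw [abs_of_pos (fa a (hA ha)).β0]; exact (fa a (hA ha)).β2
      refine cov_image (fun a => (c a, c₁ a, c₂ a)) fun a ha b hb hab => ?_
      simp only [Prod.mk.injEq] at hab
      have a1 := hc a ha b hb hab.1
      have a2 := hc₁ a ha b hb hab.2.1
      have a3 := hc₂ a ha b hb hab.2.2
      have a4 := eV a (hA ha) b (hA hb)
      have a5 := eT a (hA ha) b (hA hb)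
      have a6 := mul_le_mul_of_nonneg_left a1 (show 0 ≤ 2 / (2 + M) by positivity)
      have a7 := mul_le_mul_of_nonneg_left a2 (show 0 ≤ 2 / M by positivity)
      have a8 := mul_le_mul_of_nonneg_left a3 (show 0 ≤ 2 / M by positivity)
      have a9 : 2 / M * (M * θ / 4) = θ / 2 := by field_simp; ring
      linarith)
  have f := fa b hb
  have e1 := f.xe
  rw [hfix, hα b hb] at e1
  refine ⟨b, S.cv p q b, S.cβ p q b, cγ p b, hF1 b hb, f.β0, f.γ0, e1 ▸ f.x1, f.z1, e1 ▸ f.fx, ?_⟩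
  rw [← hγ' b hb]
  exact f.fz

end SI

end Crest.Agent.R74
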