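import Crest.Agent.R74.Brouwer

/-! Darbo's fixed point theorem for set-contractions (Kuratowski measure of noncompactness). -/

set_option autoImplicit false

namespace Crest.Agent.R74

open Finset

theorem exists_col {α : Type*} (φ : α → ℝ) (A : Set α) {R θ : ℝ} (hθ : 0 < θ)
    (h : ∀ a ∈ A, |φ a| ≤ R) : ∃ (ι : Type) (_ : Fintype ι) (c : α → ι),
      ∀ a ∈ A, ∀ b ∈ A, c a = c b → |φ a - φ b| ≤ θ := by
  classical
  obtain ⟨t, ht, hc⟩ := Metric.totallyBounded_iff.1 (isCompact_Icc (a := -R) (b := R)).totallyBounded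
    (θ / 2) (by positivity)
  have hch : ∀ a, a ∈ A → ∃ y : t, dist (φ a) y < θ / 2 := fun a ha => by
    have := hc (abs_le.1 (h a ha))
    simp only [Set.mem_iUnion, Metric.mem_ball] at this
    obtain ⟨y, hy, hd⟩ := this
    exact ⟨⟨y, hy⟩, hd⟩
  choose y hy using hch
  refine ⟨Option t, by haveI := ht.fintype; infer_instance,
    fun a => if ha : a ∈ A then some (y a ha) else none, fun a ha b hb hab => ?_⟩
  simp only [ha, hb, dif_pos, Option.some.injEq] at hab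
  have h1 := hy a ha
  have h2 := hy b hb
  rw [← hab] at h2
  have := dist_triangle_right (φ a) (φ b) (y a ha)
  rw [Real.dist_eq] at this
  linarith

section
variable {X : Type*} [NormedAddCommGroup X]

/-- `A` is covered by finitely many sets of diameter at most `η` -/
def Cov (A : Set X) (η : ℝ) : Prop :=
  ∃ (ι : Type) (_ : Fintype ι) (c : X → ι), ∀ a ∈ A, ∀ b ∈ A, c a = c b → ‖a - b‖ ≤ η

theorem Cov.mono {A : Set X} {η η' : ℝ} (h : Cov A η) (hη : η ≤ η') : Cov A η' := by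
  obtain ⟨ι, _, c, hc⟩ := h
  exact ⟨ι, inferInstance, c, fun a ha b hb hab => (hc a ha b hb hab).trans hη⟩

theorem Cov.insert {A : Set X} {η : ℝ} (h : Cov A η) (hη : 0 ≤ η) (u : X) :
    Cov (insert u A) η := by
  classical
  obtain ⟨ι, _, c, hc⟩ := h
  refine ⟨Option ι, inferInstance, fun a => if a = u then none else some (c a), ?_⟩
  intro a ha b hb hab
  by_cases h1 : a = u <;> by_cases h2 : b = u
  · simpa [h1, h2] using hη
  · simp [h1, h2] at hab
  · simp [h1, h2] at hab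
  · simp only [h1, h2, if_false, Option.some.injEq] at hab
    exact hc a (ha.resolve_left h1) b (hb.resolve_left h2) hab

theorem cov_image {α : Type*} {A : Set α} {T : α → X} {η : ℝ} {ι : Type} [Fintype ι] (c : α → ι)
    (h : ∀ a ∈ A, ∀ b ∈ A, c a = c b → ‖T a - T b‖ ≤ η) : Cov (T '' A) η := by
  classical
  refine ⟨Option ι, inferInstance,
    fun x => if hx : x ∈ T '' A then some (c hx.choose) else none, fun x hx y hy hxy => ?_⟩
  simp only [hx, hy, dif_pos, Option.some.injEq] at hxy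
  have := h _ hx.choose_spec.1 _ hy.choose_spec.1 hxy
  rwa [hx.choose_spec.2, hy.choose_spec.2] at this

variable [NormedSpace ℝ X]

theorem convex_norm_le {E : Type*} [AddCommGroup E] [Module ℝ E] (L : E →ₗ[ℝ] X)
    (l : E →ₗ[ℝ] ℝ) : Convex ℝ {e | ‖L e‖ ≤ l e} := by
  intro x hx y hy a b ha hb _
  simp only [Set.mem_ofPred_eq, map_add, map_smul, smul_eq_mul] at hx hy ⊢
  refine (norm_add_le _ _).trans ?_
  rw [norm_smul, norm_smul, Real.norm_eq_abs, Real.norm_eq_abs, abs_of_nonneg ha, abs_of_nonneg hb]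
  gcongr

/-- the truncated cone over a set -/
def cn (S : Set X) : Set (ℝ × X) := convexHull ℝ (insert 0 ((fun a => ((1 : ℝ), a)) '' S))

theorem cn_fst {S : Set X} {W : ℝ × X} (hW : W ∈ cn S) : 0 ≤ W.1 ∧ W.1 ≤ 1 := by
  have : cn S ⊆ (LinearMap.fst ℝ ℝ X) ⁻¹' Set.Icc 0 1 := by
    refine convexHull_min ?_ ((convex_Icc 0 1).linear_preimage _)
    rintro _ (rfl | ⟨a, -, rfl⟩) <;> simp
  exact this hW

theorem cn_norm {S : Set X} {R : ℝ} (hR : ∀ a ∈ S, ‖a‖ ≤ R) {W : ℝ × X} (hW : W ∈ cn S) :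
    ‖W.2‖ ≤ R * W.1 := by
  have : cn S ⊆ {e | ‖LinearMap.snd ℝ ℝ X e‖ ≤ (R • LinearMap.fst ℝ ℝ X) e} := by
    refine convexHull_min ?_ (convex_norm_le _ _)
    rintro _ (rfl | ⟨a, ha, rfl⟩)
    · simp
    · simpa using hR a ha
  simpa using this hW

/-- `W ↦ W'.1 • W.2 - W.1 • W'.2` -/
noncomputable def crossL (W' : ℝ × X) : ℝ × X →ₗ[ℝ] X :=
  W'.1 • LinearMap.snd ℝ ℝ X - (LinearMap.fst ℝ ℝ X).smulRight W'.2

theorem crossL_apply (W' W : ℝ × X) : crossL W' W = W'.1 • W.2 - W.1 • W'.2 := by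
  simp [crossL]

theorem cn_cross {S : Set X} {η : ℝ} (hS : ∀ a ∈ S, ∀ b ∈ S, ‖a - b‖ ≤ η) {W W' : ℝ × X}
    (hW : W ∈ cn S) (hW' : W' ∈ cn S) : ‖W'.1 • W.2 - W.1 • W'.2‖ ≤ η * W'.1 * W.1 := by
  have h1 : ∀ b ∈ S, ∀ W ∈ cn S, ‖W.2 - W.1 • b‖ ≤ η * W.1 := fun b hb W hW => by
    have : cn S ⊆ {e | ‖crossL ((1 : ℝ), b) e‖ ≤ (η • LinearMap.fst ℝ ℝ X) e} := by
      refine convexHull_min ?_ (convex_norm_le _ _)
      rintro _ (rfl | ⟨a, ha, rfl⟩)
      · simp
      · simpa [crossL_apply] using hS a ha b hb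
    simpa [crossL_apply] using this hW
  have : cn S ⊆ {e | ‖crossL W e‖ ≤ ((η * W.1) • LinearMap.fst ℝ ℝ X) e} := by
    refine convexHull_min ?_ (convex_norm_le _ _)
    rintro _ (rfl | ⟨a, ha, rfl⟩)
    · simp
    · have := h1 a ha W hW
      rw [norm_sub_rev] at this
      simpa [crossL_apply] using this
  have h2 := this hW'
  simp only [Set.mem_ofPred_eq, crossL_apply, LinearMap.smul_apply, LinearMap.fst_apply,
    smul_eq_mul] at h2
  rw [norm_sub_rev] at h2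
  linarith

theorem cn_sub {S : Set X} {η R : ℝ} (hη : 0 ≤ η) (hR : ∀ a ∈ S, ‖a‖ ≤ R)
    (hS : ∀ a ∈ S, ∀ b ∈ S, ‖a - b‖ ≤ η) {W W' : ℝ × X}
    (hW : W ∈ cn S) (hW' : W' ∈ cn S) :
    ‖W.2 - W'.2‖ ≤ η * W'.1 + R * |W.1 - W'.1| := by
  have h1 := cn_cross hS hW hW'
  have h2 := cn_norm hR hW
  have h3 := cn_norm hR hW'
  rcases (cn_fst hW).1.eq_or_lt with h0 | h0
  · rw [← h0, mul_zero] at h2
    have : W.2 = 0 := norm_le_zero_iff.1 h2
    rw [this, ← h0, zero_sub, zero_sub, norm_neg, abs_neg, abs_of_nonneg (cn_fst hW').1]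
    nlinarith [mul_nonneg hη (cn_fst hW').1]
  · have e : W.1 • (W.2 - W'.2) = (W.1 - W'.1) • W.2 + (W'.1 • W.2 - W.1 • W'.2) := by module
    have h4 := norm_add_le ((W.1 - W'.1) • W.2) (W'.1 • W.2 - W.1 • W'.2)
    rw [← e, norm_smul, norm_smul, Real.norm_eq_abs, Real.norm_eq_abs, abs_of_pos h0] at h4
    have h5 := mul_le_mul_of_nonneg_left h2 (abs_nonneg (W.1 - W'.1))
    refine le_of_mul_le_mul_left ?_ h0
    linarith

theorem Cov.convexHull {A : Set X} {η R θ : ℝ} (h : Cov A η) (hη : 0 ≤ η) (hR0 : 0 ≤ R)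
    (hR : ∀ a ∈ A, ‖a‖ ≤ R) (hθ : 0 < θ) : Cov (convexHull ℝ A) (η + θ) := by
  classical
  obtain ⟨ι, _, c, hc⟩ := h
  let S : ι → Set X := fun i => {a | a ∈ A ∧ c a = i}
  let D : Set X := {w | ∃ W : ι → ℝ × X, (∀ i, W i ∈ cn (S i)) ∧ ∑ i, (W i).1 = 1 ∧
    ∑ i, (W i).2 = w}
  have hD : _root_.convexHull ℝ A ⊆ D := by
    refine convexHull_min ?_ ?_
    · intro a ha
      refine ⟨Pi.single (c a) (1, a), fun i => ?_, ?_, ?_⟩
      · refine subset_convexHull _ _ ?_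
        by_cases hi : i = c a
        · subst hi
          rw [Pi.single_eq_same]
          exact Or.inr ⟨a, ⟨ha, rfl⟩, rfl⟩
        · rw [Pi.single_eq_of_ne hi]
          exact Or.inl rfl
      · rw [← Prod.fst_sum, sum_pi_single']; simp
      · rw [← Prod.snd_sum, sum_pi_single']; simp
    · rintro _ ⟨W, hW, h1, rfl⟩ _ ⟨W', hW', h1', rfl⟩ s t hs ht hst
      refine ⟨fun i => s • W i + t • W' i, fun i => convex_convexHull _ _ (hW i) (hW' i) hs ht hst,
        ?_, ?_⟩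
      · simp only [Prod.fst_add, Prod.smul_fst, smul_eq_mul, sum_add_distrib, ← mul_sum, h1, h1']
        linarith
      · simp only [Prod.snd_add, Prod.smul_snd, sum_add_distrib, ← smul_sum]
  have hD' : ∀ w : X, ∃ W : ι → ℝ × X, w ∈ _root_.convexHull ℝ A →
      (∀ i, W i ∈ cn (S i)) ∧ ∑ i, (W i).1 = 1 ∧ ∑ i, (W i).2 = w := fun w => by
    by_cases hw : w ∈ _root_.convexHull ℝ A
    · obtain ⟨W, hW⟩ := hD hw
      exact ⟨W, fun _ => hW⟩
    · exact ⟨0, fun h => absurd h hw⟩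
  choose W hW using hD'
  obtain ⟨θ', hθ', hθθ⟩ : ∃ θ' : ℝ, 0 < θ' ∧ Fintype.card ι * (R * θ') ≤ θ := by
    refine ⟨θ / (Fintype.card ι * R + 1), by positivity, ?_⟩
    rw [← mul_assoc, ← mul_div_assoc, div_le_iff₀ (by positivity)]
    nlinarith
  choose κ hκ e he using fun i => exists_col (fun w => (W w i).1) (_root_.convexHull ℝ A) (R := 1)
    hθ' fun w hw => by
      have := cn_fst ((hW w hw).1 i)
      rw [abs_of_nonneg this.1]
      exact this.2
  refine ⟨∀ i, κ i, inferInstance, fun w i => e i w, fun a ha b hb hab => ?_⟩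
  obtain ⟨a1, a2, a3⟩ := hW a ha
  obtain ⟨b1, b2, b3⟩ := hW b hb
  have h1 : ∀ i, ‖(W a i).2 - (W b i).2‖ ≤ η * (W b i).1 + R * θ' := fun i => by
    refine (cn_sub hη (fun x hx => hR x hx.1)
      (fun x hx y hy => hc x hx.1 y hy.1 (hx.2.trans hy.2.symm)) (a1 i) (b1 i)).trans ?_
    have := he i a ha b hb (congrFun hab i)
    gcongr
  have h2 : a - b = ∑ i, ((W a i).2 - (W b i).2) := by rw [sum_sub_distrib, a3, b3]
  rw [h2]
  refine (norm_sum_le _ _).trans ((sum_le_sum fun i _ => h1 i).trans ?_)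
  rw [sum_add_distrib, ← mul_sum, b2, sum_const, card_univ, nsmul_eq_mul]
  linarith

theorem darbo [CompleteSpace X] {F : Set X} (hF : Convex ℝ F) (hcl : IsClosed F) {R : ℝ}
    (hR : ∀ a ∈ F, ‖a‖ ≤ R) {u : X} (hu : u ∈ F) {T : X → X} (hT : Set.MapsTo T F F)
    (hc : ContinuousOn T F) {κ : ℝ} (hκ0 : 0 ≤ κ) (hκ : κ < 1)
    (hcond : ∀ A ⊆ F, ∀ η θ : ℝ, 0 < θ → Cov A η → Cov (T '' A) (κ * η + θ)) :
    ∃ b ∈ F, T b = b := by
  classical
  have hR0 : 0 ≤ R := (norm_nonneg _).trans (hR u hu)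
  let 𝒞 : Set (Set X) := {C | C ⊆ F ∧ Convex ℝ C ∧ u ∈ C ∧ Set.MapsTo T C C}
  let K : Set X := ⋂₀ 𝒞
  have hKF : K ⊆ F := Set.sInter_subset_of_mem ⟨subset_rfl, hF, hu, hT⟩
  have hKc : Convex ℝ K := convex_sInter fun C hC => hC.2.1
  have huK : u ∈ K := fun C hC => hC.2.2.1
  have hTK : Set.MapsTo T K K := fun a ha C hC => hC.2.2.2 (ha C hC)
  have hK1 : convexHull ℝ (insert u (T '' K)) ⊆ K :=
    convexHull_min (Set.insert_subset huK hTK.image_subset) hKc
  have hK2 : K ⊆ convexHull ℝ (insert u (T '' K)) :=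
    Set.sInter_subset_of_mem ⟨hK1.trans hKF, convex_convexHull _ _,
      subset_convexHull _ _ (Set.mem_insert _ _),
      fun a ha => subset_convexHull _ _ (Or.inr ⟨a, hK1 ha, rfl⟩)⟩
  have hK : convexHull ℝ (insert u (T '' K)) = K := hK1.antisymm hK2
  have step : ∀ η, 0 < η → Cov K η → Cov K ((1 + κ) / 2 * η) := fun η hη h => by
    have hθ : 0 < (1 - κ) / 4 * η := by have := sub_pos.2 hκ; positivity
    have h0 : 0 ≤ κ * η + (1 - κ) / 4 * η := by positivity
    have h1 := ((hcond K hKF η _ hθ h).insert h0 u).convexHull h0 hR0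
      (fun a ha => hR a (hKF (Set.insert_subset huK hTK.image_subset ha))) hθ
    rw [hK] at h1
    exact h1.mono (le_of_eq (by ring))
  have iter : ∀ n : ℕ, Cov K (((1 + κ) / 2) ^ n * (2 * R + 1)) := fun n => by
    induction n with
    | zero =>
      refine ⟨Unit, inferInstance, fun _ => (), fun a ha b hb _ => ?_⟩
      have := norm_sub_le a b
      have := hR a (hKF ha)
      have := hR b (hKF hb)
      rw [pow_zero]
      linarith
    | succ n ih => exact (step _ (by positivity) ih).mono (le_of_eq (by ring))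
  have net : ∀ η, 0 < η → ∃ (ι : Type) (_ : Fintype ι) (b : ι → X), (∀ i, b i ∈ K) ∧
      ∀ a ∈ K, ∃ i, ‖a - b i‖ < η := fun η hη => by
    obtain ⟨n, hn⟩ := exists_pow_lt_of_lt_one (x := η / (2 * R + 1)) (y := (1 + κ) / 2)
      (by positivity) (by linarith)
    rw [lt_div_iff₀ (by positivity)] at hn
    obtain ⟨ι, _, c, hcc⟩ := iter n
    refine ⟨ι, inferInstance, fun i => if h : ∃ a ∈ K, c a = i then h.choose else u, fun i => ?_,
      fun a ha => ⟨c a, ?_⟩⟩
    · beta_reduce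
      split_ifs with h
      · exact h.choose_spec.1
      · exact huK
    · have h : ∃ a' ∈ K, c a' = c a := ⟨a, ha, rfl⟩
      beta_reduce
      rw [dif_pos h]
      exact (hcc a ha _ h.choose_spec.1 h.choose_spec.2.symm).trans_lt hn
  have htb : TotallyBounded K := by
    refine Metric.totallyBounded_iff.2 fun η hη => ?_
    obtain ⟨ι, _, b, -, hb⟩ := net η hη
    refine ⟨Set.range b, Set.finite_range b, fun a ha => ?_⟩
    obtain ⟨i, hi⟩ := hb a ha
    simp only [Set.mem_iUnion, Metric.mem_ball, dist_eq_norm]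
    exact ⟨b i, ⟨i, rfl⟩, hi⟩
  have hcomp : IsCompact (closure K) :=
    htb.closure.isCompact_of_isClosed isClosed_closure
  have hcF : closure K ⊆ F := closure_minimal hKF hcl
  obtain ⟨b, hb, hmin⟩ := hcomp.exists_isMinOn ⟨u, subset_closure huK⟩
    (f := fun a => ‖T a - a‖) ((hc.mono hcF).sub continuousOn_id).norm
  refine ⟨b, hcF hb, ?_⟩
  rw [← sub_eq_zero, ← norm_le_zero_iff]
  refine le_of_forall_pos_le_add fun η hη => ?_
  obtain ⟨ι, _, e, he, hb⟩ := net η hη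
  obtain ⟨a, ha, h⟩ := approx_fix hKc huK hTK (hc.mono hKF) e he hb
  have := hmin (subset_closure ha)
  simp only [Set.mem_ofPred_eq] at this
  linarith

end

end Crest.Agent.R74
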