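import Mathlib

/-! Tingley's problem: the planar convexity argument. -/

set_option autoImplicit false

namespace Crest.Agent.R74

section
variable {X Y : Type*} [NormedAddCommGroup X] [NormedSpace ℝ X] [NormedAddCommGroup Y]
  [NormedSpace ℝ Y]

theorem key (u y : X) (hy : ‖y‖ = 1) {a τ b σ : ℝ} (ha : 0 ≤ a) (hb : 0 ≤ b) (h : a * σ ≤ b * τ) :
    b * ‖a • u + τ • y‖ ≤ a * ‖b • u + σ • y‖ + (b * τ - a * σ) := by
  have e : b • (a • u + τ • y) = a • (b • u + σ • y) + (b * τ - a * σ) • y := by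
    module
  have h1 : ‖b • (a • u + τ • y)‖ = b * ‖a • u + τ • y‖ := by
    rw [norm_smul, Real.norm_eq_abs, abs_of_nonneg hb]
  have h2 : ‖a • (b • u + σ • y)‖ = a * ‖b • u + σ • y‖ := by
    rw [norm_smul, Real.norm_eq_abs, abs_of_nonneg ha]
  have h3 : ‖(b * τ - a * σ) • y‖ = b * τ - a * σ := by
    rw [norm_smul, Real.norm_eq_abs, abs_of_nonneg (by linarith), hy, mul_one]
  have h4 := norm_add_le (a • (b • u + σ • y)) ((b * τ - a * σ) • y)
  rw [← e] at h4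
  linarith

/-- one side of the planar configuration -/
theorem side (u y : X) (v y' : Y) (hy : ‖y‖ = 1) (hy' : ‖y'‖ = 1) {α β γ γ' M r ε A : ℝ}
    (hβ : 0 < β) (hγ : 0 < γ) (hM : 0 < M) (hr : 0 < r) (hε : 0 < ε) (hrε : r + ε = 1)
    (hα : α = β + M) (hγ' : γ' = γ + M)
    (e1 : ‖α • u + r • y‖ = 1) (e2 : ‖β • v + r • y'‖ = 1)
    (e3 : ‖γ • u + ε • y‖ = A) (e4 : ‖γ' • v + ε • y'‖ = A)
    (i1 : ∀ τ, 0 ≤ τ → τ ≤ r → ‖α • u + τ • y‖ - ‖β • v + τ • y'‖ ≤ M)
    (i2 : ∀ τ, 0 ≤ τ → τ ≤ ε → ‖γ' • v + τ • y'‖ - ‖γ • u + τ • y‖ ≤ M) :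
    (r * γ' ≤ ε * β ∧ ε * (α + γ) ≤ α * β ∧ α * (A - ε) ≤ γ * ε) ∨
      (ε * (α + γ) ≤ β * γ ∧ (A - ε) * (α + γ) ≤ γ * γ') := by
  have hα0 : 0 < α := by linarith
  have hγ0 : 0 < γ' := by linarith
  have hd : α * γ' - β * γ = M * (α + γ) := by rw [hα, hγ']; ring
  have hMd : 0 < M * (α + γ) := by positivity
  have k1 : γ * r ≤ α * ε → α * (A - ε) ≤ γ * ε := fun h => by
    have := key u y hy hγ.le hα0.le h
    rw [e1, e3] at this
    have : r = 1 - ε := by linarith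
    subst this
    linarith
  have k2 : β * ε ≤ γ' * r → γ' * ε ≤ β * (A - ε) := fun h => by
    have := key v y' hy' hβ.le hγ0.le h
    rw [e2, e4] at this
    have : r = 1 - ε := by linarith
    subst this
    linarith
  by_cases c1 : r * γ' ≤ ε * β
  · left
    have hγr : γ * r ≤ α * ε := by nlinarith
    refine ⟨c1, ?_, k1 hγr⟩
    obtain ⟨τ, hτ⟩ : ∃ τ, τ * β = γ' * r := ⟨γ' * r / β, by field_simp⟩
    have hτ0 : 0 ≤ τ := by
      by_contra h
      nlinarith [mul_pos hγ0 hr]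
    have hτε : τ ≤ ε := by
      by_contra h
      nlinarith
    have h1 := key v y' hy' hβ.le hγ0.le (σ := τ) (τ := r) (by linarith)
    have hτr : γ * r ≤ α * τ := by
      by_contra h
      push Not at h
      have := mul_lt_mul_of_pos_right h hβ
      nlinarith [mul_pos hMd hr]
    have h2 := key u y hy hγ.le hα0.le (τ := τ) (σ := r) hτr
    have h3 := i2 τ hτ0 hτε
    rw [e2] at h1
    rw [e1] at h2
    generalize ‖γ' • v + τ • y'‖ = P at h1 h3
    generalize ‖γ • u + τ • y‖ = Q at h2 h3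
    have h4 : α * β * (P - Q) ≤ α * β * M := mul_le_mul_of_nonneg_left h3 (by positivity)
    have h5 : α * (γ' * 1) ≤ α * (β * P + (γ' * r - β * τ)) := mul_le_mul_of_nonneg_left h1 hα0.le
    have h6 : β * (α * Q) ≤ β * (γ * 1 + (α * τ - γ * r)) := mul_le_mul_of_nonneg_left h2 hβ.le
    have h7 : M * (ε * (α + γ)) ≤ M * (α * β) := by
      have hr' : r = 1 - ε := by linarith
      have e5 : M * (ε * (α + γ)) = ε * (α * γ' - β * γ) := by rw [hd]; ring
      have e6 : α * (τ * β) = α * (γ' * r) := by rw [hτ]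
      rw [e5]
      rw [hr'] at h5 h6 e6
      linarith
    exact le_of_mul_le_mul_left h7 hM
  · right
    push Not at c1
    have h0 := k2 (by linarith)
    have c2 : ε * α ≤ r * γ := by
      by_contra c2
      push Not at c2
      have h1 := k1 (by linarith)
      have h2 := mul_le_mul_of_nonneg_left h0 hα0.le
      have h3 := mul_le_mul_of_nonneg_left h1 hβ.le
      nlinarith [mul_pos hMd hε]
    obtain ⟨τ, hτ⟩ : ∃ τ, τ * γ = α * ε := ⟨α * ε / γ, by field_simp⟩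
    have hτ0 : 0 ≤ τ := by
      by_contra h
      nlinarith [mul_pos hα0 hε]
    have hτr : τ ≤ r := by
      by_contra h
      nlinarith
    have h1 := key u y hy hγ.le hα0.le (σ := τ) (τ := ε) (by linarith)
    have hτε : β * ε ≤ γ' * τ := by
      by_contra h
      push Not at h
      have := mul_lt_mul_of_pos_right h hγ
      nlinarith [mul_pos hMd hε]
    have h2 := key v y' hy' hβ.le hγ0.le (τ := τ) (σ := ε) hτε
    have h3 := i1 τ hτ0 hτr
    rw [e3] at h1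
    rw [e4] at h2
    generalize ‖α • u + τ • y‖ = P at h1 h3
    generalize ‖β • v + τ • y'‖ = Q at h2 h3
    have h4 : γ * γ' * (P - Q) ≤ γ * γ' * M := mul_le_mul_of_nonneg_left h3 (by positivity)
    have h5 : γ' * (α * A) ≤ γ' * (γ * P + (α * ε - γ * τ)) := mul_le_mul_of_nonneg_left h1 hγ0.le
    have h6 : γ * (γ' * Q) ≤ γ * (β * A + (γ' * τ - β * ε)) := mul_le_mul_of_nonneg_left h2 hγ.le
    have h7 : M * ((A - ε) * (α + γ)) ≤ M * (γ * γ') := by
      have e5 : M * ((A - ε) * (α + γ)) = (A - ε) * (α * γ' - β * γ) := by rw [hd]; ring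
      have e6 : γ' * (τ * γ) = γ' * (α * ε) := by rw [hτ]
      rw [e5]
      linarith
    have h8 := le_of_mul_le_mul_left h7 hM
    refine ⟨?_, h8⟩
    have h9 : γ' * (ε * (α + γ)) ≤ γ' * (β * γ) := by
      have a1 := mul_le_mul_of_nonneg_right h0 (show 0 ≤ α + γ by positivity)
      have a2 := mul_le_mul_of_nonneg_left h8 hβ.le
      linarith
    exact le_of_mul_le_mul_left h9 hγ0

theorem arith {α β γ γ' M r ε A B : ℝ}
    (hβ : 0 < β) (hγ : 0 < γ) (hM : 0 < M) (hr : 0 < r) (hε : 0 < ε) (hrε : r + ε = 1)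
    (hα : α = β + M) (hγ' : γ' = γ + M) (hd : α + γ ≤ 2) (hAB : α + γ ≤ A + B)
    (P : (r * γ' ≤ ε * β ∧ ε * (α + γ) ≤ α * β ∧ α * (A - ε) ≤ γ * ε) ∨
      (ε * (α + γ) ≤ β * γ ∧ (A - ε) * (α + γ) ≤ γ * γ'))
    (Q : (r * α ≤ ε * γ ∧ ε * (γ' + β) ≤ γ' * γ ∧ γ' * (B - ε) ≤ β * ε) ∨
      (ε * (γ' + β) ≤ γ * β ∧ (B - ε) * (γ' + β) ≤ β * α)) : False := by
  have hα0 : 0 < α := by linarith
  have hγ0 : 0 < γ' := by linarith
  obtain ⟨d, hdd⟩ : ∃ d, d = α + γ := ⟨_, rfl⟩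
  have hd' : γ' + β = d := by rw [hdd, hα, hγ']; ring
  have hd0 : 0 < d := by rw [hdd]; positivity
  have hMd : α * γ' - β * γ = M * d := by rw [hdd, hα, hγ']; ring
  have hdsq : d * d = α * β + α * γ' + β * γ + γ * γ' := by
    calc d * d = (α + γ) * (γ' + β) := by rw [hd', ← hdd]
      _ = _ := by ring
  rw [hd'] at Q
  rw [← hdd] at P hd hAB
  have hAB' : d * d ≤ (A + B) * d := mul_le_mul_of_nonneg_right hAB hd0.le
  have hMd0 : 0 < M * d := by positivity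
  rcases P with ⟨p1, p2, p3⟩ | ⟨p1, p2⟩ <;> rcases Q with ⟨q1, q2, q3⟩ | ⟨q1, q2⟩
  · have h1 : r < ε := by
      by_contra h
      push Not at h
      nlinarith [mul_le_mul_of_nonneg_right h hγ0.le, mul_le_mul_of_nonneg_right h hα0.le,
        mul_pos hε hM]
    have h2 : d * d < 4 * (ε * d) := by nlinarith
    have h3 : 4 * (α * γ) ≤ d * d := by rw [hdd]; nlinarith [sq_nonneg (α - γ)]
    have h4 : 4 * (β * γ') ≤ d * d := by rw [← hd']; nlinarith [sq_nonneg (β - γ')]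
    have h5 : (ε * d) * (ε * d) ≤ (α * β) * (γ' * γ) :=
      mul_le_mul p2 q2 (by positivity) (by positivity)
    have h6 : (4 * (α * γ)) * (4 * (β * γ')) ≤ (d * d) * (d * d) :=
      mul_le_mul h3 h4 (by positivity) (by positivity)
    have h7 : (d * d) * (d * d) < (4 * (ε * d)) * (4 * (ε * d)) :=
      mul_lt_mul'' h2 h2 (by positivity) (by positivity)
    nlinarith
  · have h1 : α * (d * d) ≤ α * ((A + B) * d) := mul_le_mul_of_nonneg_left hAB' hα0.le
    have h2 : α * (A - ε) * d ≤ γ * ε * d := mul_le_mul_of_nonneg_right p3 hd0.le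
    have h3 : α * ((B - ε) * d) ≤ α * (β * α) := mul_le_mul_of_nonneg_left q2 hα0.le
    have h4 : (2 * α + γ) * (ε * d) ≤ (2 * α + γ) * (γ * β) :=
      mul_le_mul_of_nonneg_left q1 (by positivity)
    have h5 : α * (d * d) ≤ β * (d * d) := by
      have : β * (d * d) = (2 * α + γ) * (γ * β) + α * (β * α) := by rw [hdd]; ring
      nlinarith
    nlinarith [mul_pos hM (mul_pos hd0 hd0)]
  · have h1 : γ' * (d * d) ≤ γ' * ((A + B) * d) := mul_le_mul_of_nonneg_left hAB' hγ0.le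
    have h2 : γ' * (B - ε) * d ≤ β * ε * d := mul_le_mul_of_nonneg_right q3 hd0.le
    have h3 : γ' * ((A - ε) * d) ≤ γ' * (γ * γ') := mul_le_mul_of_nonneg_left p2 hγ0.le
    have h4 : (2 * γ' + β) * (ε * d) ≤ (2 * γ' + β) * (β * γ) :=
      mul_le_mul_of_nonneg_left p1 (by positivity)
    have h5 : γ' * (d * d) ≤ γ * (d * d) := by
      have : γ * (d * d) = (2 * γ' + β) * (β * γ) + γ' * (γ * γ') := by rw [← hd']; ring
      nlinarith
    nlinarith [mul_pos hM (mul_pos hd0 hd0)]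
  · nlinarith

/-- an aligned extremal chord does not exist -/
theorem planar (u y : X) (v y' : Y) (hu : ‖u‖ = 1) (hy : ‖y‖ = 1) (hy' : ‖y'‖ = 1)
    {α β γ γ' M r : ℝ} (hβ : 0 < β) (hγ : 0 < γ) (hM : 0 < M) (hr : 0 < r) (hr1 : r < 1)
    (hα : α = β + M) (hγ' : γ' = γ + M)
    (x z : X) (x' z' : Y) (hx : x = r • y + α • u) (hz : z = r • y - γ • u)
    (hx' : x' = r • y' + β • v) (hz' : z' = r • y' - γ' • v)
    (nx : ‖x‖ = 1) (nz : ‖z‖ = 1) (nx' : ‖x'‖ = 1) (nz' : ‖z'‖ = 1)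
    (dx : ‖x' - y'‖ = ‖x - y‖) (dz : ‖z' - y'‖ = ‖z - y‖)
    (ix : ∀ s : ℝ, 0 ≤ s → s ≤ 1 → ‖x - s • y‖ - ‖x' - s • y'‖ ≤ M)
    (iz : ∀ s : ℝ, 0 ≤ s → s ≤ 1 → ‖z' - s • y'‖ - ‖z - s • y‖ ≤ M) : False := by
  have hε : 0 < 1 - r := by linarith
  have hα0 : 0 < α := by linarith
  have a1 : ∀ τ : ℝ, ‖α • u + τ • y‖ = ‖x - (r - τ) • y‖ := fun τ => by
    rw [hx]; congr 1; module
  have a2 : ∀ τ : ℝ, ‖β • v + τ • y'‖ = ‖x' - (r - τ) • y'‖ := fun τ => by
    rw [hx']; congr 1; module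
  have a3 : ∀ τ : ℝ, ‖γ • u + τ • y‖ = ‖z - (r + τ) • y‖ := fun τ => by
    rw [hz, ← norm_neg]; congr 1; module
  have a4 : ∀ τ : ℝ, ‖γ' • v + τ • y'‖ = ‖z' - (r + τ) • y'‖ := fun τ => by
    rw [hz', ← norm_neg]; congr 1; module
  have b1 : ∀ τ : ℝ, ‖α • u + τ • (-y)‖ = ‖x - (r + τ) • y‖ := fun τ => by
    rw [hx]; congr 1; module
  have b2 : ∀ τ : ℝ, ‖β • v + τ • (-y')‖ = ‖x' - (r + τ) • y'‖ := fun τ => by
    rw [hx']; congr 1; module
  have b3 : ∀ τ : ℝ, ‖γ • u + τ • (-y)‖ = ‖z - (r - τ) • y‖ := fun τ => by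
    rw [hz, ← norm_neg]; congr 1; module
  have b4 : ∀ τ : ℝ, ‖γ' • v + τ • (-y')‖ = ‖z' - (r - τ) • y'‖ := fun τ => by
    rw [hz', ← norm_neg]; congr 1; module
  have P := side u y v y' hy hy' (A := ‖z - y‖) hβ hγ hM hr hε (by ring) hα hγ'
    (by rw [a1]; simpa using nx) (by rw [a2]; simpa using nx') (by rw [a3]; simp)
    (by rw [a4]; simpa using dz)
    (fun τ h0 h1 => by rw [a1, a2]; exact ix _ (by linarith) (by linarith))
    (fun τ h0 h1 => by rw [a4, a3]; exact iz _ (by linarith) (by linarith))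
  have Q := side v (-y') u (-y) (by rw [norm_neg, hy']) (by rw [norm_neg, hy]) (A := ‖x - y‖)
    hγ hβ hM hr hε (by ring) hγ' hα
    (by rw [b4]; simpa using nz') (by rw [b3]; simpa using nz) (by rw [b2]; simpa using dx)
    (by rw [b1]; simp)
    (fun τ h0 h1 => by rw [b4, b3]; exact iz _ (by linarith) (by linarith))
    (fun τ h0 h1 => by rw [b1, b2]; exact ix _ (by linarith) (by linarith))
  have hxz : ‖x - z‖ = α + γ := by
    have : x - z = (α + γ) • u := by rw [hx, hz]; module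
    rw [this, norm_smul, hu, mul_one, Real.norm_eq_abs, abs_of_pos (by positivity)]
  refine arith hβ hγ hM hr hε (by ring) hα hγ' ?_ ?_ P Q
  · have := norm_sub_le x z
    linarith
  · have := norm_sub_le (x - y) (z - y)
    rw [sub_sub_sub_cancel_right] at this
    linarith

end

end Crest.Agent.R74
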