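import Crest.Agent.R74.Align
import Crest.Agent.R74.Planar

/-! Tingley's problem: ultrapowers, and vanishing of the defect of the radial extension. -/

set_option autoImplicit false

namespace Crest.Agent.R74

open Filter Topology BoundedContinuousFunction

/-- a free ultrafilter -/
noncomputable def U : Ultrafilter ℕ := hyperfilter ℕ

theorem exists_lim (a : ℕ → ℝ) {A B : ℝ} (h : ∀ n, a n ∈ Set.Icc A B) :
    ∃ l ∈ Set.Icc A B, Tendsto a U (𝓝 l) :=
  isCompact_Icc.ultrafilter_le_nhds (U.map a)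
    (le_principal_iff.2 (mem_map.2 (Eventually.of_forall h)))

section
variable (X : Type*) [NormedAddCommGroup X] [NormedSpace ℝ X]

/-- sequences that tend to zero along `U` -/
def Nul : Submodule ℝ (ℕ →ᵇ X) where
  carrier := {x | Tendsto (fun n => x n) U (𝓝 0)}
  add_mem' := fun {a b} ha hb => by simpa using Tendsto.add ha hb
  zero_mem' := by simp
  smul_mem' := fun c a ha => by simpa using Tendsto.const_smul ha c

instance : IsClosed (Nul X : Set (ℕ →ᵇ X)) := by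
  refine isClosed_of_closure_subset fun x hx => ?_
  show Tendsto (fun n => x n) U (𝓝 0)
  rw [NormedAddGroup.tendsto_nhds_zero]
  intro ε hε
  obtain ⟨y, hy, hd⟩ := Metric.mem_closure_iff.1 hx (ε / 2) (by positivity)
  have hy' : Tendsto (fun n => y n) U (𝓝 0) := hy
  filter_upwards [NormedAddGroup.tendsto_nhds_zero.1 hy' (ε / 2) (by positivity)] with n hn
  have h1 := (dist_coe_le_dist (f := x) (g := y) n).trans_lt hd
  rw [dist_eq_norm] at h1
  have := norm_add_le (x n - y n) (y n)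
  rw [sub_add_cancel] at this
  linarith

/-- the ultrapower -/
abbrev Ult : Type _ := (ℕ →ᵇ X) ⧸ Nul X

variable {X}

theorem tendsto_norm_mk (x : ℕ →ᵇ X) :
    Tendsto (fun n => ‖x n‖) U (𝓝 ‖(Submodule.Quotient.mk x : Ult X)‖) := by
  classical
  obtain ⟨l, hl, h⟩ := exists_lim (fun n => ‖x n‖) (A := 0) (B := ‖x‖)
    fun n => ⟨norm_nonneg _, norm_coe_le_norm x n⟩
  convert h using 2
  apply le_antisymm
  · refine le_of_forall_pos_le_add fun ε hε => ?_
    let y : ℕ →ᵇ X := ofNormedAddCommGroupDiscrete (fun n => if ‖x n‖ < l + ε then x n else 0)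
      (l + ε) fun n => by
        split_ifs with h
        · exact h.le
        · rw [norm_zero]; linarith [hl.1]
    have e : (Submodule.Quotient.mk x : Ult X) = Submodule.Quotient.mk y := by
      rw [Submodule.Quotient.eq]
      show Tendsto (fun n => (x - y) n) U (𝓝 0)
      refine tendsto_const_nhds.congr' ?_
      filter_upwards [h.eventually (gt_mem_nhds (show l < l + ε by linarith))] with n hn
      simp [y, hn]
    rw [e]
    refine (Submodule.Quotient.norm_mk_le _ _).trans ?_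
    refine (norm_le (by linarith [hl.1])).2 fun n => ?_
    simp only [y, coe_ofNormedAddCommGroupDiscrete]
    split_ifs with h
    · exact h.le
    · rw [norm_zero]; linarith [hl.1]
  · refine le_of_forall_pos_le_add fun ε hε => ?_
    obtain ⟨m, hm, hlt⟩ := Submodule.Quotient.norm_mk_lt (Submodule.Quotient.mk x : Ult X) hε
    rw [Submodule.Quotient.eq] at hm
    have hm' : Tendsto (fun n => (m - x) n) U (𝓝 0) := hm
    have h2 : Tendsto (fun n => ‖x n‖ - ‖(m - x) n‖) U (𝓝 (l - ‖(0 : X)‖)) := h.sub hm'.norm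
    rw [norm_zero, sub_zero] at h2
    refine (le_of_tendsto' h2 fun n => ?_).trans hlt.le
    have h3 := norm_sub_le (m n) (m n - x n)
    rw [sub_sub_cancel] at h3
    have h4 := norm_coe_le_norm m n
    simp only [coe_sub, Pi.sub_apply]
    linarith

/-- the class of a sequence of unit vectors -/
noncomputable def mkU (x : ℕ → X) (hx : ∀ n, ‖x n‖ = 1) : Ult X :=
  Submodule.Quotient.mk (ofNormedAddCommGroupDiscrete x 1 fun n => (hx n).le)

theorem tendsto_mkU (x y : ℕ → X) (hx : ∀ n, ‖x n‖ = 1) (hy : ∀ n, ‖y n‖ = 1) (s : ℝ) :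
    Tendsto (fun n => ‖x n - s • y n‖) U (𝓝 ‖mkU x hx - s • mkU y hy‖) := by
  unfold mkU
  rw [← Submodule.Quotient.mk_smul, ← Submodule.Quotient.mk_sub]
  exact tendsto_norm_mk _

theorem tendsto_mkU' (x y : ℕ → X) (hx : ∀ n, ‖x n‖ = 1) (hy : ∀ n, ‖y n‖ = 1) :
    Tendsto (fun n => ‖x n - y n‖) U (𝓝 ‖mkU x hx - mkU y hy‖) := by
  simpa using tendsto_mkU x y hx hy 1

theorem norm_mkU (x : ℕ → X) (hx : ∀ n, ‖x n‖ = 1) : ‖mkU x hx‖ = 1 := by
  have := tendsto_mkU x x hx hx 0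
  simp only [zero_smul, sub_zero, hx] at this
  exact tendsto_nhds_unique this tendsto_const_nhds

theorem exists_rep {e : X} (he : ‖e‖ = 1) {ξ : Ult X} (h : ‖ξ‖ = 1) :
    ∃ (x : ℕ → X) (hx : ∀ n, ‖x n‖ = 1), mkU x hx = ξ := by
  classical
  obtain ⟨a, rfl⟩ := Submodule.Quotient.mk_surjective _ ξ
  have h1 := tendsto_norm_mk a
  rw [h] at h1
  refine ⟨fun n => if a n = 0 then e else ‖a n‖⁻¹ • a n, fun n => ?_, ?_⟩
  · beta_reduce
    split_ifs with h0
    · exact he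
    · exact (dir_spec h0).1
  · unfold mkU
    rw [Submodule.Quotient.eq]
    refine tendsto_zero_iff_norm_tendsto_zero.2 ?_
    have h2 : Tendsto (fun n => |1 - ‖a n‖|) U (𝓝 |1 - 1|) := (tendsto_const_nhds.sub h1).abs
    rw [sub_self, abs_zero] at h2
    refine h2.congr fun n => ?_
    simp only [coe_sub, coe_ofNormedAddCommGroupDiscrete, Pi.sub_apply]
    split_ifs with h0
    · simp [h0, he]
    · obtain ⟨d1, d2⟩ := dir_spec h0
      have : ‖a n‖⁻¹ • a n - a n = (1 - ‖a n‖) • ‖a n‖⁻¹ • a n := by rw [sub_smul, one_smul, d2]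
      rw [this, norm_smul, d1, mul_one, Real.norm_eq_abs]

end

namespace SI
variable {X Y : Type*} [NormedAddCommGroup X] [NormedAddCommGroup Y] [NormedSpace ℝ X]
  [NormedSpace ℝ Y] (S : SI X Y)

open Classical in
/-- the induced map of ultrapowers -/
noncomputable def fU (ξ : Ult X) : Ult Y :=
  if h : ∃ (x : ℕ → X) (hx : ∀ n, ‖x n‖ = 1), mkU x hx = ξ then
    mkU (fun n => S.f (h.choose n)) fun n => S.nf _ (h.choose_spec.choose n) else 0

theorem fU_mkU (x : ℕ → X) (hx : ∀ n, ‖x n‖ = 1) :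
    S.fU (mkU x hx) = mkU (fun n => S.f (x n)) fun n => S.nf _ (hx n) := by
  have h : ∃ (x' : ℕ → X) (hx' : ∀ n, ‖x' n‖ = 1), mkU x' hx' = mkU x hx := ⟨x, hx, rfl⟩
  unfold fU
  rw [dif_pos h, ← sub_eq_zero, ← norm_eq_zero]
  have h1 := tendsto_mkU' _ _ h.choose_spec.choose hx
  rw [h.choose_spec.choose_spec, sub_self, norm_zero] at h1
  refine tendsto_nhds_unique (tendsto_mkU' _ _ _ _) (h1.congr fun n => ?_)
  rw [S.d _ _ (h.choose_spec.choose n) (hx n)]

/-- the ultrapower of a sphere isometry -/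
noncomputable def ult {e : X} (he : ‖e‖ = 1) : SI (Ult X) (Ult Y) where
  f := S.fU
  g := S.symm.fU
  nf := fun ξ h => by
    obtain ⟨x, hx, rfl⟩ := exists_rep he h
    rw [fU_mkU, norm_mkU]
  ng := fun ξ h => by
    obtain ⟨x, hx, rfl⟩ := exists_rep (S.nf e he) h
    rw [fU_mkU, norm_mkU]
  gf := fun ξ h => by
    obtain ⟨x, hx, rfl⟩ := exists_rep he h
    rw [fU_mkU, fU_mkU]
    congr 1
    funext n
    exact S.gf _ (hx n)
  fg := fun ξ h => by
    obtain ⟨x, hx, rfl⟩ := exists_rep (S.nf e he) h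
    rw [fU_mkU, fU_mkU]
    congr 1
    funext n
    exact S.fg _ (hx n)
  d := fun ξ ζ h h' => by
    obtain ⟨x, hx, rfl⟩ := exists_rep he h
    obtain ⟨y, hy, rfl⟩ := exists_rep he h'
    rw [fU_mkU, fU_mkU]
    refine tendsto_nhds_unique (tendsto_mkU' _ _ _ _) ((tendsto_mkU' _ _ hx hy).congr fun n => ?_)
    rw [S.d _ _ (hx n) (hy n)]

/-- the defect of the radial extension -/
noncomputable def df (x y : X) (s : ℝ) : ℝ := ‖x - s • y‖ - ‖S.f x - s • S.f y‖

theorem no_max [CompleteSpace X] {M : ℝ} (hM : 0 < M)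
    (hB : ∀ x y s, ‖x‖ = 1 → ‖y‖ = 1 → 0 ≤ s → s ≤ 1 → |S.df x y s| ≤ M) {x₀ y : X} {r : ℝ}
    (hx₀ : ‖x₀‖ = 1) (hy : ‖y‖ = 1) (h0 : 0 ≤ r) (h1 : r ≤ 1) (h : S.df x₀ y r = M) : False := by
  have hr0 : 0 < r := by
    refine h0.lt_of_ne ?_
    rintro rfl
    simp only [df, zero_smul, sub_zero, hx₀, S.nf _ hx₀, sub_self] at h
    exact hM.ne h
  have hr1 : r < 1 := by
    refine h1.lt_of_ne ?_
    rintro rfl
    simp only [df, one_smul, S.d _ _ hx₀ hy, sub_self] at h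
    exact hM.ne h
  have hy' := S.nf y hy
  obtain ⟨u, v, β, γ, hu, hβ, hγ, nx, nz, fx, fz⟩ := S.align (p := r • y) (q := r • S.f y)
    (by rwa [nsm h0, hy, mul_one]) (by rwa [nsm h0, hy', mul_one]) hM
    (fun w hw => hB w y r hw hy h0 h1) hx₀ h
  exact planar u y v (S.f y) hu hy hy' hβ hγ hM hr0 hr1 rfl rfl _ _ _ _ rfl rfl fx fz nx nz
    (S.nf _ nx) (S.nf _ nz) (S.d _ _ nx hy) (S.d _ _ nz hy)
    (fun s a b => (abs_le.1 (hB _ y s nx hy a b)).2)
    (fun s a b => by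
      have := (abs_le.1 (hB _ y s nz hy a b)).1
      unfold df at this
      linarith)

theorem no_max' [CompleteSpace X] [CompleteSpace Y] {M : ℝ} (hM : 0 < M)
    (hB : ∀ x y s, ‖x‖ = 1 → ‖y‖ = 1 → 0 ≤ s → s ≤ 1 → |S.df x y s| ≤ M) {x₀ y : X} {r : ℝ}
    (hx₀ : ‖x₀‖ = 1) (hy : ‖y‖ = 1) (h0 : 0 ≤ r) (h1 : r ≤ 1) (h : |S.df x₀ y r| = M) : False := by
  rcases (abs_eq hM.le).1 h with h | h
  · exact S.no_max hM hB hx₀ hy h0 h1 h
  · refine S.symm.no_max hM (fun x y s hx hy a b => ?_) (S.nf _ hx₀) (S.nf _ hy) h0 h1 ?_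
    · have := hB _ _ s (S.ng x hx) (S.ng y hy) a b
      unfold df at this ⊢
      rw [S.fg x hx, S.fg y hy, abs_sub_comm] at this
      exact this
    · unfold df at h ⊢
      show _ - ‖S.g (S.f x₀) - r • S.g (S.f y)‖ = M
      rw [S.gf _ hx₀, S.gf _ hy]
      linarith

theorem norm_sub_smul_lip {x y : X} (hy : ‖y‖ = 1) (s t : ℝ) :
    |‖x - s • y‖ - ‖x - t • y‖| ≤ |s - t| := by
  refine (abs_norm_sub_norm_le _ _).trans (le_of_eq ?_)
  rw [sub_sub_sub_cancel_left, ← sub_smul, norm_smul, hy, mul_one, Real.norm_eq_abs, abs_sub_comm]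

theorem df_eq_zero [CompleteSpace X] [CompleteSpace Y] {x y : X} {r : ℝ} (hx : ‖x‖ = 1)
    (hy : ‖y‖ = 1) (h0 : 0 ≤ r) (h1 : r ≤ 1) : S.df x y r = 0 := by
  by_contra hne
  let D : Set ℝ := {t | ∃ x y s, ‖x‖ = 1 ∧ ‖y‖ = 1 ∧ 0 ≤ s ∧ s ≤ 1 ∧ t = |S.df x y s|}
  have hD : BddAbove D := by
    refine ⟨2, ?_⟩
    rintro _ ⟨x, y, s, hx, hy, a, b, rfl⟩
    have a1 := norm_sub_le x (s • y)
    have a2 := norm_sub_le (S.f x) (s • S.f y)
    rw [nsm a, hx, hy] at a1
    rw [nsm a, S.nf x hx, S.nf y hy] at a2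
    have a3 := norm_nonneg (x - s • y)
    have a4 := norm_nonneg (S.f x - s • S.f y)
    unfold df
    rw [abs_le]
    constructor <;> linarith
  have hB : ∀ x y s, ‖x‖ = 1 → ‖y‖ = 1 → 0 ≤ s → s ≤ 1 → |S.df x y s| ≤ sSup D :=
    fun x y s a b c d => le_csSup hD ⟨x, y, s, a, b, c, d, rfl⟩
  have hM : 0 < sSup D := (abs_pos.2 hne).trans_le (hB x y r hx hy h0 h1)
  have hseq : ∀ n : ℕ, ∃ t ∈ D, sSup D - 1 / ((n : ℝ) + 1) < t := fun n =>
    exists_lt_of_lt_csSup ⟨_, x, y, r, hx, hy, h0, h1, rfl⟩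
      (sub_lt_self _ Nat.one_div_pos_of_nat)
  choose t ht hlt using hseq
  choose a b s ha hb hs0 hs1 hts using ht
  obtain ⟨l, hl, hlim⟩ := exists_lim s (A := 0) (B := 1) fun n => ⟨hs0 n, hs1 n⟩
  have key : ∀ (x y : ℕ → X) (hx' : ∀ n, ‖x n‖ = 1) (hy' : ∀ n, ‖y n‖ = 1) (s : ℝ),
      Tendsto (fun n => |S.df (x n) (y n) s|) U (𝓝 |(S.ult hx).df (mkU x hx') (mkU y hy') s|) := by
    intro x' y' hx' hy' s
    refine Tendsto.abs (Tendsto.sub (tendsto_mkU _ _ _ _ _) ?_)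
    show Tendsto _ _ (𝓝 ‖S.fU _ - s • S.fU _‖)
    rw [fU_mkU, fU_mkU]
    exact tendsto_mkU _ _ _ _ _
  refine (S.ult hx).no_max' hM (fun ξ ζ s hξ hζ c d => ?_) (norm_mkU a ha) (norm_mkU b hb)
    hl.1 hl.2 ?_
  · obtain ⟨x', hx', rfl⟩ := exists_rep hx hξ
    obtain ⟨y', hy', rfl⟩ := exists_rep hx hζ
    exact le_of_tendsto' (key x' y' hx' hy' s) fun n => hB _ _ s (hx' n) (hy' n) c d
  · apply le_antisymm
    · exact le_of_tendsto' (key a b ha hb l) fun n => hB _ _ l (ha n) (hb n) hl.1 hl.2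
    · have t1 : Tendsto (fun n : ℕ => 1 / ((n : ℝ) + 1)) U (𝓝 0) :=
        tendsto_one_div_add_atTop_nhds_zero_nat.mono_left Nat.hyperfilter_le_atTop
      have t2 : Tendsto (fun n : ℕ => sSup D - 1 / ((n : ℝ) + 1) - 2 * |s n - l|) U
          (𝓝 (sSup D - 0 - 2 * |l - l|)) :=
        (tendsto_const_nhds.sub t1).sub ((hlim.sub tendsto_const_nhds).abs.const_mul 2)
      rw [sub_self, abs_zero, mul_zero, sub_zero, sub_zero] at t2
      refine le_of_tendsto_of_tendsto' t2 (key a b ha hb l) fun n => ?_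
      have e1 := hlt n
      rw [hts n] at e1
      have e2 := abs_le.1 (norm_sub_smul_lip (x := a n) (hb n) (s n) l)
      have e3 := abs_le.1 (norm_sub_smul_lip (x := S.f (a n)) (S.nf _ (hb n)) (s n) l)
      have e4 : |S.df (a n) (b n) (s n)| ≤ |S.df (a n) (b n) l| + 2 * |s n - l| := by
        have e5 := le_abs_self (S.df (a n) (b n) l)
        have e6 := neg_abs_le (S.df (a n) (b n) l)
        rw [abs_le]
        unfold df at e5 e6 ⊢
        constructor <;> linarith [e2.1, e2.2, e3.1, e3.2]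
      linarith

/-- the radial extension -/
noncomputable def rad (x : X) : Y := ‖x‖ • S.f (‖x‖⁻¹ • x)

theorem rad_zero : S.rad 0 = 0 := by simp [rad]

theorem rad_smul {t : ℝ} (ht : 0 ≤ t) {x : X} (hx : ‖x‖ = 1) : S.rad (t • x) = t • S.f x := by
  rcases ht.eq_or_lt with rfl | ht'
  · simp [rad]
  · rw [rad, nsm ht, hx, mul_one, inv_smul_smul₀ ht'.ne']

theorem exists_polar {e : X} (he : ‖e‖ = 1) (x : X) : ∃ (t : ℝ) (u : X), 0 ≤ t ∧ ‖u‖ = 1 ∧
    x = t • u := by
  by_cases h : x = 0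
  · exact ⟨0, e, le_rfl, he, by simp [h]⟩
  · exact ⟨‖x‖, _, norm_nonneg _, (dir_spec h).1, (dir_spec h).2.symm⟩

theorem rad_dist [CompleteSpace X] [CompleteSpace Y] {e : X} (he : ‖e‖ = 1) (a b : X) :
    ‖S.rad a - S.rad b‖ = ‖a - b‖ := by
  have key : ∀ (s t : ℝ) (x y : X), 0 ≤ t → t ≤ s → ‖x‖ = 1 → ‖y‖ = 1 →
      ‖s • S.f x - t • S.f y‖ = ‖s • x - t • y‖ := by
    intro s t x y ht hts hx hy
    rcases (ht.trans hts).eq_or_lt with rfl | hs
    · obtain rfl : t = 0 := le_antisymm hts ht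
      simp
    · have h := S.df_eq_zero hx hy (div_nonneg ht hs.le) ((div_le_one hs).2 hts)
      unfold df at h
      have e1 : s • S.f x - t • S.f y = s • (S.f x - (t / s) • S.f y) := by
        rw [smul_sub, smul_smul, mul_div_cancel₀ _ hs.ne']
      have e2 : s • x - t • y = s • (x - (t / s) • y) := by
        rw [smul_sub, smul_smul, mul_div_cancel₀ _ hs.ne']
      rw [e1, e2, norm_smul, norm_smul, sub_eq_zero.1 h]
  obtain ⟨s, x, hs, hx, rfl⟩ := exists_polar he a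
  obtain ⟨t, y, ht, hy, rfl⟩ := exists_polar he b
  rw [S.rad_smul hs hx, S.rad_smul ht hy]
  rcases le_total t s with h | h
  · exact key s t x y ht h hx hy
  · rw [norm_sub_rev, key t s y x hs h hy hx, norm_sub_rev]

theorem exists_equiv [CompleteSpace X] [CompleteSpace Y] {e : X} (he : ‖e‖ = 1) :
    ∃ T : X ≃ₗᵢ[ℝ] Y, ∀ x, ‖x‖ = 1 → T x = S.f x := by
  let E : X ≃ᵢ Y :=
    { toFun := S.rad
      invFun := S.symm.rad
      left_inv := fun a => by
        obtain ⟨s, x, hs, hx, rfl⟩ := exists_polar he a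
        rw [S.rad_smul hs hx, S.symm.rad_smul hs (S.nf x hx)]
        exact congrArg _ (S.gf x hx)
      right_inv := fun a => by
        obtain ⟨s, x, hs, hx, rfl⟩ := exists_polar (S.nf e he) a
        rw [S.symm.rad_smul hs hx, S.rad_smul hs (S.symm.nf x hx)]
        exact congrArg _ (S.fg x hx)
      isometry_toFun := Isometry.of_dist_eq fun a b => by
        rw [dist_eq_norm, dist_eq_norm]
        exact S.rad_dist he a b }
  refine ⟨E.toRealLinearIsometryEquivOfMapZero S.rad_zero, fun x hx => ?_⟩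
  have := S.rad_smul zero_le_one hx
  rw [one_smul, one_smul] at this
  exact this

end SI

end Crest.Agent.R74
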